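import Vale.Agent.P183.R2.H577.Sk
import Vale.Agent.P183.R2.H726.Elim
import Vale.Agent.P183.R2.H381.Refine

/-! P183: elimination without local corners. -/

set_option linter.unusedSectionVars false

namespace Vale.Agent.P183.H577

open Matrix

namespace EG

variable {R : Type} [Ring R] {ι κ : Type} [Fintype ι] [DecidableEq ι] [Fintype κ] [DecidableEq κ]

theorem conj_mul (U : Matrix ι κ R) (V : Matrix κ ι R) (N M : Matrix κ κ R)
    (h : N * (V * U) = N) :
    (1 + U * N * V) * (1 + U * M * V) = 1 + U * ((1 + N) * (1 + M) - 1) * V := by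
  have h1 : (U * N * V) * (U * M * V) = U * (N * M) * V := by
    calc (U * N * V) * (U * M * V) = U * (N * (V * U)) * M * V := by
          simp only [Matrix.mul_assoc]
      _ = U * (N * M) * V := by rw [h]; simp only [Matrix.mul_assoc]
  have h2 : (1 + N) * (1 + M) - 1 = N * M + (N + M) := by noncomm_ring
  have h3 : ∀ X Y : Matrix ι ι R, (1 + X) * (1 + Y) = 1 + (X * Y + (X + Y)) := fun X Y => by
    noncomm_ring
  rw [h2, h3, h1]
  simp only [Matrix.mul_add, Matrix.add_mul]

theorem aux1 (N : Matrix κ κ R) : (1 + N) * (1 - N) = 1 - N * N := by noncomm_ring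

theorem aux2 (N : Matrix κ κ R) : (1 - N) * (1 + N) = 1 - N * N := by noncomm_ring

end EG

variable {R : Type} [Ring R] [Finite R] {n : ℕ}

open EG

/-- nilpotent block diagonal matrices -/
theorem in_bl_nil {ι : Type} [Fintype ι] [DecidableEq ι] {e : Fin n → R} {p : ι → Fin n}
    {N : Matrix ι ι R} (hN : Blk e p N) (h : N * N = 0) : In (bl e p) N := by
  refine ⟨⟨1 + N, 1 - N, ?_, ?_⟩, ?_, rfl⟩
  · have : (1 + N) * (1 - N) = 1 - N * N := by noncomm_ring
    rw [this, h, sub_zero]
  · have : (1 - N) * (1 + N) = 1 - N * N := by noncomm_ring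
    rw [this, h, sub_zero]
  · show Blk e p (1 + N - 1)
    rw [add_sub_cancel_left]
    exact hN

theorem elim_gen {ι : Type} [Fintype ι] [DecidableEq ι] (e : Fin n → R)
    (he : ∀ i, e i * e i = e i) (ho : ∀ i j, i ≠ j → e i * e j = 0) (hs : ∑ i, e i = 1)
    (p : ι → Fin n) (S : Subring R) (hS : ∀ i x, e i * x * e i ∈ S)
    (K : Subgroup (Matrix ι ι R)ˣ) (hK : bl e p ≤ K)
    (hT : ∀ a b, p a ≠ p b → ∀ x ∈ S, In K (Matrix.single a b (e (p a) * x * e (p b)))) :
    gl e S p ≤ K := by
  classical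
  obtain ⟨m, f, hf, hfo, hfs, hfe, hfl⟩ := refine_row e he ho hs
  let κ : Type := {x : ι × Fin m // e (p x.1) * f x.2 = f x.2 ∧ f x.2 * e (p x.1) = f x.2}
  let q : κ → Fin m := fun x => x.1.2
  let U : Matrix ι κ R := Matrix.of fun a x => if x.1.1 = a then f x.1.2 else 0
  let V : Matrix κ ι R := Matrix.of fun x a => if x.1.1 = a then f x.1.2 else 0
  have hSf : ∀ j x, f j * x * f j ∈ S := by
    intro j x
    obtain ⟨i, h1, h2⟩ := hfe j
    have := hS i (f j * x * f j)
    have e2 : e i * (f j * x * f j) * e i = (e i * f j) * x * (f j * e i) := by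
      simp only [mul_assoc]
    rwa [e2, h1, h2] at this
  have hfS : ∀ j, f j ∈ S := fun j => by
    have := hSf j 1
    rwa [mul_one, hf] at this
  -- the products
  have hVU : ∀ x y, (V * U) x y = if x = y then f (q x) else 0 := by
    intro x y
    rw [Matrix.mul_apply]
    have h1 : ∀ a, V x a * U a y = if x.1.1 = a then (if y.1.1 = a then f x.1.2 * f y.1.2 else 0)
        else 0 := by
      intro a
      show (if x.1.1 = a then f x.1.2 else 0) * (if y.1.1 = a then f y.1.2 else 0) = _
      split_ifs <;> simp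
    rw [Finset.sum_congr rfl fun a _ => h1 a, Finset.sum_ite_eq Finset.univ x.1.1]
    simp only [Finset.mem_univ, if_true]
    by_cases hxy : x = y
    · subst hxy
      rw [if_pos rfl, if_pos rfl, hf]
    · rw [if_neg hxy]
      by_cases h2 : y.1.1 = x.1.1
      · rw [if_pos h2]
        refine hfo _ _ fun h3 => hxy ?_
        exact Subtype.ext (Prod.ext h2.symm h3)
      · rw [if_neg h2]
  have hUV : ∀ a b, (U * V) a b = if a = b then e (p a) else 0 := by
    intro a b
    rw [Matrix.mul_apply]
    have h1 : ∀ x : κ, U a x * V x b = if x.1.1 = a then (if x.1.1 = b then f x.1.2 else 0)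
        else 0 := by
      intro x
      show (if x.1.1 = a then f x.1.2 else 0) * (if x.1.1 = b then f x.1.2 else 0) = _
      split_ifs <;> simp [hf]
    rw [Finset.sum_congr rfl fun x _ => h1 x]
    by_cases hab : a = b
    · subst hab
      rw [if_pos rfl]
      have h2 : ∀ x : κ, (if x.1.1 = a then (if x.1.1 = a then f x.1.2 else 0) else 0)
          = if x.1.1 = a then f x.1.2 else 0 := by
        intro x
        split_ifs <;> rfl
      rw [Finset.sum_congr rfl fun x _ => h2 x]
      have h3 : ∑ x : κ, (if x.1.1 = a then f x.1.2 else 0) = ∑ j : Fin m, e (p a) * f j := by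
        rw [← Finset.sum_filter]
        have hz : ∀ j : Fin m, ¬ (e (p a) * f j = f j ∧ f j * e (p a) = f j) →
            e (p a) * f j = 0 := by
          intro j hj
          obtain ⟨i, h4, h5⟩ := hfe j
          by_cases hi : p a = i
          · exact absurd ⟨by rw [hi]; exact h4, by rw [hi]; exact h5⟩ hj
          · rw [← h4, ← mul_assoc, ho _ _ hi, zero_mul]
        symm
        rw [← Finset.sum_filter_add_sum_filter_not Finset.univ
          (fun j => e (p a) * f j = f j ∧ f j * e (p a) = f j)]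
        have h6 : ∑ j ∈ Finset.univ.filter
            (fun j => ¬ (e (p a) * f j = f j ∧ f j * e (p a) = f j)), e (p a) * f j = 0 :=
          Finset.sum_eq_zero fun j hj => hz j (Finset.mem_filter.1 hj).2
        rw [h6, add_zero]
        refine Finset.sum_bij' (fun j hj => (⟨(a, j), (Finset.mem_filter.1 hj).2⟩ : κ))
          (fun x _ => x.1.2) ?_ ?_ ?_ ?_ ?_
        · intro j hj
          exact Finset.mem_filter.2 ⟨Finset.mem_univ _, rfl⟩
        · intro x hx
          have hx1 := (Finset.mem_filter.1 hx).2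
          refine Finset.mem_filter.2 ⟨Finset.mem_univ _, ?_⟩
          have := x.2
          rwa [hx1] at this
        · intro j hj
          rfl
        · intro x hx
          have hx1 := (Finset.mem_filter.1 hx).2
          exact Subtype.ext (Prod.ext hx1.symm rfl)
        · intro j hj
          exact (Finset.mem_filter.1 hj).2.1
      rw [h3, ← Finset.mul_sum, hfs, mul_one]
    · rw [if_neg hab]
      refine Finset.sum_eq_zero fun x _ => ?_
      by_cases h2 : x.1.1 = a
      · rw [if_pos h2, if_neg (fun h3 => hab (h2.symm.trans h3))]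
      · rw [if_neg h2]
  have hNVU : ∀ N : Matrix κ κ R, Ent f ⊤ q N → N * (V * U) = N := by
    intro N hN
    ext x y
    rw [Matrix.mul_apply, Finset.sum_eq_single y]
    · rw [hVU, if_pos rfl]
      exact (hN x y).2.2
    · intro z _ hz
      rw [hVU, if_neg hz, mul_zero]
    · intro h
      exact absurd (Finset.mem_univ _) h
  have hMUV : ∀ M : Matrix ι ι R, Ent e ⊤ p M → M * (U * V) = M := by
    intro M hM
    ext x y
    rw [Matrix.mul_apply, Finset.sum_eq_single y]
    · rw [hUV, if_pos rfl]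
      exact (hM x y).2.2
    · intro z _ hz
      rw [hUV, if_neg hz, mul_zero]
    · intro h
      exact absurd (Finset.mem_univ _) h
  have hUVM : ∀ M : Matrix ι ι R, Ent e ⊤ p M → (U * V) * M = M := by
    intro M hM
    ext x y
    rw [Matrix.mul_apply, Finset.sum_eq_single x]
    · rw [hUV, if_pos rfl]
      exact (hM x y).2.1
    · intro z _ hz
      rw [hUV, if_neg (Ne.symm hz), zero_mul]
    · intro h
      exact absurd (Finset.mem_univ _) h
  -- entries
  have hV : ∀ (M : Matrix ι ι R) x y, (V * M * U) x y = f x.1.2 * M x.1.1 y.1.1 * f y.1.2 := by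
    intro M x y
    rw [Matrix.mul_apply, Finset.sum_eq_single y.1.1]
    · rw [Matrix.mul_apply, Finset.sum_eq_single x.1.1]
      · show (if x.1.1 = x.1.1 then f x.1.2 else 0) * M x.1.1 y.1.1 *
          (if y.1.1 = y.1.1 then f y.1.2 else 0) = _
        rw [if_pos rfl, if_pos rfl]
      · intro a _ ha
        show (if x.1.1 = a then f x.1.2 else 0) * M a y.1.1 = 0
        rw [if_neg (Ne.symm ha), zero_mul]
      · intro h
        exact absurd (Finset.mem_univ _) h
    · intro a _ ha
      show (V * M) x a * (if y.1.1 = a then f y.1.2 else 0) = 0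
      rw [if_neg (Ne.symm ha), mul_zero]
    · intro h
      exact absurd (Finset.mem_univ _) h
  have hU : ∀ (N : Matrix κ κ R) a b, (U * N * V) a b =
      ∑ x : κ, ∑ y : κ, if x.1.1 = a ∧ y.1.1 = b then f x.1.2 * N x y * f y.1.2 else 0 := by
    intro N a b
    rw [Matrix.mul_apply, Finset.sum_comm]
    refine Finset.sum_congr rfl fun y _ => ?_
    rw [Matrix.mul_apply, Finset.sum_mul]
    refine Finset.sum_congr rfl fun x _ => ?_
    show (if x.1.1 = a then f x.1.2 else 0) * N x y * (if y.1.1 = b then f y.1.2 else 0) = _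
    by_cases h1 : x.1.1 = a
    · by_cases h2 : y.1.1 = b
      · rw [if_pos h1, if_pos h2, if_pos ⟨h1, h2⟩]
      · rw [if_neg h2, mul_zero, if_neg (fun h => h2 h.2)]
    · rw [if_neg h1, zero_mul, zero_mul, if_neg (fun h => h1 h.1)]
  have hEntV : ∀ M : Matrix ι ι R, Ent e S p M → Ent f S q (V * M * U) := by
    intro M hM x y
    rw [hV]
    refine ⟨S.mul_mem (S.mul_mem (hfS _) (hM _ _).1) (hfS _), ?_, ?_⟩
    · show f x.1.2 * (f x.1.2 * M x.1.1 y.1.1 * f y.1.2) = _
      rw [← mul_assoc, ← mul_assoc, hf]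
    · show f x.1.2 * M x.1.1 y.1.1 * f y.1.2 * f y.1.2 = _
      rw [mul_assoc, hf]
  have hEntU : ∀ N : Matrix κ κ R, Ent f ⊤ q N → Ent e ⊤ p (U * N * V) := by
    intro N hN a b
    rw [hU]
    refine ⟨Subring.mem_top _, ?_, ?_⟩
    · rw [Finset.mul_sum]
      refine Finset.sum_congr rfl fun x _ => ?_
      rw [Finset.mul_sum]
      refine Finset.sum_congr rfl fun y _ => ?_
      by_cases h : x.1.1 = a ∧ y.1.1 = b
      · rw [if_pos h, ← mul_assoc, ← mul_assoc, ← h.1, x.2.1]
      · rw [if_neg h, mul_zero]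
    · rw [Finset.sum_mul]
      refine Finset.sum_congr rfl fun x _ => ?_
      rw [Finset.sum_mul]
      refine Finset.sum_congr rfl fun y _ => ?_
      by_cases h : x.1.1 = a ∧ y.1.1 = b
      · rw [if_pos h, mul_assoc, ← h.2, y.2.2]
      · rw [if_neg h, zero_mul]
  -- the group over the refined index set
  let K' : Subgroup (Matrix κ κ R)ˣ :=
    { carrier := {h | Ent f ⊤ q (h.1 - 1) ∧ ∃ g ∈ K, g.1 = 1 + U * (h.1 - 1) * V}
      one_mem' := by
        refine ⟨?_, 1, K.one_mem, ?_⟩
        · rw [Units.val_one, sub_self]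
          exact Ent.zero _ _ _
        · show (1 : Matrix ι ι R) = 1 + U * ((1 : Matrix κ κ R) - 1) * V
          simp
      mul_mem' := by
        rintro h k ⟨hh, g, hg, hgh⟩ ⟨hk, l, hl, hlk⟩
        refine ⟨(gl f ⊤ q).mul_mem (show h ∈ gl f ⊤ q from hh) (show k ∈ gl f ⊤ q from hk),
          g * l, K.mul_mem hg hl, ?_⟩
        rw [Units.val_mul, hgh, hlk, conj_mul _ _ _ _ (hNVU _ hh), Units.val_mul,
          add_sub_cancel, add_sub_cancel]
      inv_mem' := by
        rintro h ⟨hh, g, hg, hgh⟩
        refine ⟨(gl f ⊤ q).inv_mem (show h ∈ gl f ⊤ q from hh), g⁻¹, K.inv_mem hg, ?_⟩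
        apply Units.inv_eq_of_mul_eq_one_right
        rw [hgh, conj_mul _ _ _ _ (hNVU _ hh)]
        have : (1 + (h.1 - 1)) * (1 + ((h⁻¹).1 - 1)) - 1 = 0 := by
          rw [add_sub_cancel, add_sub_cancel, Units.mul_inv, sub_self]
        rw [this]
        simp }
  have hK' : bl f q ≤ K' := by
    intro h hh
    have hh1 : Blk f q (h.1 - 1) := hh
    have hh2 : Blk f q ((h⁻¹).1 - 1) := (bl f q).inv_mem hh
    have hunit : (1 + U * (h.1 - 1) * V) * (1 + U * ((h⁻¹).1 - 1) * V) = 1 := by
      rw [conj_mul _ _ _ _ (hNVU _ hh1.1)]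
      have : (1 + (h.1 - 1)) * (1 + ((h⁻¹).1 - 1)) - 1 = 0 := by
        rw [add_sub_cancel, add_sub_cancel, Units.mul_inv, sub_self]
      rw [this]
      simp
    have hunit' : (1 + U * ((h⁻¹).1 - 1) * V) * (1 + U * (h.1 - 1) * V) = 1 := by
      rw [conj_mul _ _ _ _ (hNVU _ hh2.1)]
      have : (1 + ((h⁻¹).1 - 1)) * (1 + (h.1 - 1)) - 1 = 0 := by
        rw [add_sub_cancel, add_sub_cancel, Units.inv_mul, sub_self]
      rw [this]
      simp
    refine ⟨hh1.1, ⟨_, _, hunit, hunit'⟩, hK ?_, rfl⟩
    show Blk e p (1 + U * (h.1 - 1) * V - 1)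
    rw [add_sub_cancel_left]
    refine ⟨hEntU _ hh1.1, fun a b hab => ?_⟩
    rw [hU]
    refine Finset.sum_eq_zero fun x _ => Finset.sum_eq_zero fun y _ => ?_
    by_cases h1 : x.1.1 = a ∧ y.1.1 = b
    · rw [if_pos h1]
      by_cases hxy : x.1.2 = y.1.2
      · have h2 : f x.1.2 = 0 := by
          have h3 := x.2.1
          have h4 := y.2.1
          rw [← hxy, h1.2] at h4
          rw [h1.1] at h3
          rw [← h3, ← h4, ← mul_assoc, ho _ _ hab, zero_mul]
        rw [h2, zero_mul, zero_mul]
      · rw [hh1.2 x y hxy, mul_zero, zero_mul]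
    · rw [if_neg h1]
  have hT' : ∀ x y, q x ≠ q y → ∀ s ∈ S,
      In K' (Matrix.single x y (f (q x) * s * f (q y))) := by
    intro x y hxy s hs'
    have hne : x ≠ y := fun h => hxy (by rw [h])
    set r : R := f (q x) * s * f (q y) with hr
    have hrS : r ∈ S := S.mul_mem (S.mul_mem (hfS _) hs') (hfS _)
    have hr1 : f (q x) * r = r := by rw [hr, ← mul_assoc, ← mul_assoc, hf]
    have hr2 : r * f (q y) = r := by rw [hr, mul_assoc, hf]
    have hsq := single_sq hne r
    have hent : Ent f ⊤ q (Matrix.single x y r) := ent_sgl (Subring.mem_top _) hr1 hr2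
    have hcon : U * Matrix.single x y r * V = Matrix.single x.1.1 y.1.1 r := by
      ext a b
      rw [hU, Finset.sum_eq_single x, Finset.sum_eq_single y]
      · rw [Matrix.single_apply_same]
        by_cases h : x.1.1 = a ∧ y.1.1 = b
        · obtain ⟨rfl, rfl⟩ := h
          rw [if_pos ⟨rfl, rfl⟩, Matrix.single_apply_same]
          show f (q x) * r * f (q y) = r
          rw [hr1, hr2]
        · rw [if_neg h, Matrix.single_apply_of_ne _ _ _ _ _ h]
      · intro z _ hz
        rw [Matrix.single_apply_of_ne _ _ _ _ _ (fun h => hz h.2.symm)]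
        simp
      · intro h
        exact absurd (Finset.mem_univ _) h
      · intro z _ hz
        refine Finset.sum_eq_zero fun w _ => ?_
        rw [Matrix.single_apply_of_ne _ _ _ _ _ (fun h => hz h.1.symm)]
        simp
      · intro h
        exact absurd (Finset.mem_univ _) h
    have her1 : e (p x.1.1) * r = r := by
      rw [← hr1, ← mul_assoc]
      show e (p x.1.1) * f x.1.2 * r = f x.1.2 * r
      rw [x.2.1]
    have her2 : r * e (p y.1.1) = r := by
      rw [← hr2, mul_assoc]
      show r * (f y.1.2 * e (p y.1.1)) = r * f y.1.2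
      rw [y.2.2]
    have hin : In K (Matrix.single x.1.1 y.1.1 r) := by
      by_cases hp : p x.1.1 = p y.1.1
      · refine In.mono hK (in_bl_nil ⟨ent_sgl (Subring.mem_top _) her1 her2, fun c d hcd => ?_⟩ ?_)
        · refine Matrix.single_apply_of_ne _ _ _ _ _ ?_
          rintro ⟨rfl, rfl⟩
          exact hcd hp
        · by_cases hxy1 : x.1.1 = y.1.1
          · rw [hxy1, Matrix.single_mul_single_same]
            have : r * r = 0 := by
              rw [← hr1, ← hr2]
              have : f (q x) * (r * f (q y)) * (f (q x) * (r * f (q y)))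
                  = f (q x) * r * (f (q y) * f (q x)) * (r * f (q y)) := by
                simp only [mul_assoc]
              rw [this, hfo _ _ (Ne.symm hxy), mul_zero, zero_mul]
            rw [this, Matrix.single_zero]
          · exact single_sq hxy1 r
      · have := hT _ _ hp r hrS
        rwa [her1, her2] at this
    obtain ⟨g, hg, hgr⟩ := hin
    refine ⟨⟨1 + Matrix.single x y r, 1 - Matrix.single x y r, ?_, ?_⟩, ⟨?_, g, hg, ?_⟩, rfl⟩
    · rw [aux1, hsq, sub_zero]
    · rw [aux2, hsq, sub_zero]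
    · show Ent f ⊤ q (1 + Matrix.single x y r - 1)
      rw [add_sub_cancel_left]
      exact hent
    · show g.1 = 1 + U * (1 + Matrix.single x y r - 1) * V
      rw [add_sub_cancel_left, hcon, hgr]
  have key := elim_row f hf hfo hfs hfl q S hSf K' hK' hT'
  intro g hg
  have hg1 : Ent e S p (g.1 - 1) := hg
  have hg2 : Ent e S p ((g⁻¹).1 - 1) := (gl e S p).inv_mem hg
  have hgt1 : Ent e ⊤ p (g.1 - 1) := hg1.mono le_top
  have hgt2 : Ent e ⊤ p ((g⁻¹).1 - 1) := hg2.mono le_top
  have hunit : (1 + V * (g.1 - 1) * U) * (1 + V * ((g⁻¹).1 - 1) * U) = 1 := by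
    rw [conj_mul _ _ _ _ (hMUV _ hgt1)]
    have : (1 + (g.1 - 1)) * (1 + ((g⁻¹).1 - 1)) - 1 = 0 := by
      rw [add_sub_cancel, add_sub_cancel, Units.mul_inv, sub_self]
    rw [this]
    simp
  have hunit' : (1 + V * ((g⁻¹).1 - 1) * U) * (1 + V * (g.1 - 1) * U) = 1 := by
    rw [conj_mul _ _ _ _ (hMUV _ hgt2)]
    have : (1 + ((g⁻¹).1 - 1)) * (1 + (g.1 - 1)) - 1 = 0 := by
      rw [add_sub_cancel, add_sub_cancel, Units.inv_mul, sub_self]
    rw [this]
    simp
  let h : (Matrix κ κ R)ˣ := ⟨_, _, hunit, hunit'⟩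
  have hh : h ∈ gl f S q := by
    show Ent f S q (1 + V * (g.1 - 1) * U - 1)
    rw [add_sub_cancel_left]
    exact hEntV _ hg1
  obtain ⟨-, g', hg', hgg⟩ := key hh
  have hfin : g'.1 = g.1 := by
    rw [hgg]
    show 1 + U * (1 + V * (g.1 - 1) * U - 1) * V = g.1
    rw [add_sub_cancel_left]
    have : U * (V * (g.1 - 1) * U) * V = (U * V) * ((g.1 - 1) * (U * V)) := by
      simp only [Matrix.mul_assoc]
    rw [this, hMUV _ hgt1, hUVM _ hgt1, add_sub_cancel]
  rw [← Units.ext hfin]
  exact hg'

end Vale.Agent.P183.H577
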