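import Vale.Agent.P183.R2.H577.Theta
import Vale.Agent.P183.H994.Icc

/-! P183: rings between `A` and `B` invariant under automorphisms and antiautomorphisms. -/

set_option linter.unusedSectionVars false

namespace Vale.Agent.P183.H577

open Matrix Vale.Agent.P183 Vale.Agent.P183.H996 Vale.Agent.P183.H994

/-- **Invariant rings between two rings.** -/
theorem theta_between (R X : Type) [Ring R] [Finite R] [Fintype X] (e : X → R)
    (he : ∀ x, e x * e x = e x) (ho : ∀ x y, x ≠ y → e x * e y = 0) (hs : ∑ x, e x = 1)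
    (Th : Set (R ≃+ R))
    (hTh : ∀ θ ∈ Th, (∀ x y, θ (x * y) = θ x * θ y) ∨ (∀ x y, θ (x * y) = θ y * θ x))
    (hThe : ∀ θ ∈ Th, ∀ x, θ (e x) = e x) (A B : Subring R)
    (hA : ∀ x, ∀ b ∈ B, e x * b * e x ∈ A) (hAB : A ≤ B)
    (hTA : ∀ θ ∈ Th, ∀ a ∈ A, θ a ∈ A) (hTB : ∀ θ ∈ Th, ∀ b ∈ B, θ b ∈ B) :
    GroupInterval {C : Subring R // (A ≤ C ∧ C ≤ B) ∧ ∀ θ ∈ Th, ∀ c ∈ C, θ c ∈ C} := by
  classical
  have heB : ∀ x, e x ∈ B := fun x => hAB (by
    have := hA x 1 B.one_mem
    rwa [mul_one, he] at this)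
  let q := (Fintype.equivFin X).symm
  let e' : Fin (Fintype.card X) → B := fun i => ⟨e (q i), heB _⟩
  let Tb : Set (B ≃+ B) := {τ | ∃ θ ∈ Th, ∀ b : B, ((τ b : B) : R) = θ b}
  have hres : ∀ θ ∈ Th, ∃ τ : B ≃+ B, ∀ b : B, ((τ b : B) : R) = θ b := by
    intro θ hθ
    let f : B →+ B :=
      { toFun := fun b => ⟨θ b, hTB θ hθ b b.2⟩
        map_zero' := Subtype.ext (map_zero θ)
        map_add' := fun x y => Subtype.ext (map_add θ (x : R) (y : R)) }
    have hinj : Function.Injective f := by
      intro x y h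
      apply Subtype.ext
      exact θ.injective (congrArg Subtype.val h)
    exact ⟨AddEquiv.ofBijective f ⟨hinj, Finite.surjective_of_injective hinj⟩, fun b => rfl⟩
  have key := main_theta B (Fintype.card X) e' (fun i => Subtype.ext (he _))
    (fun i j hij => Subtype.ext (ho _ _ fun h => hij (q.injective h)))
    (by
      apply Subtype.ext
      rw [AddSubmonoidClass.coe_finsetSum]
      show ∑ i, e (q i) = 1
      rw [Equiv.sum_comp q e, hs])
    Tb
    (by
      rintro τ ⟨θ, hθ, hτ⟩
      rcases hTh θ hθ with h | h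
      · left
        intro x y
        apply Subtype.ext
        rw [hτ, Subring.coe_mul, Subring.coe_mul, hτ, hτ, h]
      · right
        intro x y
        apply Subtype.ext
        rw [hτ, Subring.coe_mul, Subring.coe_mul, hτ, hτ, h])
    (by
      rintro τ ⟨θ, hθ, hτ⟩ i
      apply Subtype.ext
      rw [hτ]
      exact hThe θ hθ _)
    (A.comap B.subtype)
    (fun i x => hA (q i) x.1 x.2)
    (by
      rintro τ ⟨θ, hθ, hτ⟩ a ha
      rw [Subring.mem_comap] at ha ⊢
      show ((τ a : B) : R) ∈ A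
      rw [hτ]
      exact hTA θ hθ _ ha)
  refine GroupInterval.of_iso ?_ key
  exact
    { toFun := fun C => ⟨C.1.comap B.subtype, fun a ha => C.2.1.1 ha, by
        rintro τ ⟨θ, hθ, hτ⟩ c hc
        rw [Subring.mem_comap] at hc ⊢
        show ((τ c : B) : R) ∈ C.1
        rw [hτ]
        exact C.2.2 θ hθ _ hc⟩
      invFun := fun D => ⟨D.1.map B.subtype, ⟨fun a ha =>
          ⟨⟨a, hAB ha⟩, D.2.1 (show (⟨a, hAB ha⟩ : B) ∈ A.comap B.subtype from ha), rfl⟩, by
          rintro x ⟨y, -, rfl⟩
          exact y.2⟩, by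
        rintro θ hθ c ⟨y, hy, rfl⟩
        obtain ⟨τ, hτ⟩ := hres θ hθ
        exact ⟨τ y, D.2.2 τ ⟨θ, hθ, hτ⟩ y hy, hτ y⟩⟩
      left_inv := by
        intro C
        apply Subtype.ext
        show (C.1.comap B.subtype).map B.subtype = C.1
        ext x
        constructor
        · rintro ⟨y, hy, rfl⟩
          exact hy
        · intro hx
          exact ⟨⟨x, C.2.1.2 hx⟩, hx, rfl⟩
      right_inv := by
        intro D
        apply Subtype.ext
        show (D.1.map B.subtype).comap B.subtype = D.1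
        ext x
        constructor
        · rintro ⟨y, hy, hyx⟩
          rwa [← Subtype.ext hyx]
        · intro hx
          exact ⟨x, hx, rfl⟩
      map_rel_iff' := by
        intro C D
        constructor
        · intro h x hx
          exact h (show (⟨x, C.2.1.2 hx⟩ : B) ∈ C.1.comap B.subtype from hx)
        · intro h x hx
          exact h hx }

end Vale.Agent.P183.H577
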