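import Vale.Agent.P183.R2.H577.Sk
import Vale.Agent.P183.R2.H674.Card
import Vale.Agent.P183.R2.H808.Iso
import Vale.Agent.P183.R2.H726.Elim
import Vale.Agent.P183.R2.H501.StepTwo

/-! P183: intermediate rings are group intervals (assembly). -/

set_option linter.unusedSectionVars false

namespace Vale.Agent.P183.H577

open Matrix Vale.Agent.P183 Vale.Agent.P183.H996

variable {R : Type} [Ring R] [Finite R] {n : ℕ} {ι : Type} [Fintype ι] [DecidableEq ι]

theorem skP_corner {e : Fin n → R} {p : ι → Fin n} (ho : ∀ i j, i ≠ j → e i * e j = 0)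
    (K : Subgroup (Matrix ι ι R)ˣ) (i : Fin n) (x : R) : SkP e p K (e i * x * e i) := by
  intro a b hab
  have : e (p a) * (e i * x * e i) * e (p b) = 0 := by
    by_cases h : p a = i
    · have hb : i ≠ p b := fun h2 => hab (h.trans h2)
      rw [mul_assoc, mul_assoc (e i * x), ho _ _ hb, mul_zero, mul_zero]
    · rw [← mul_assoc, ← mul_assoc, ho _ _ h, zero_mul, zero_mul, zero_mul]
  rw [this, Matrix.single_zero]
  exact In.zero K

/-- conjugates of elementary matrices -/
theorem ent_conj {e : Fin n → R} {p : ι → Fin n} {g h : (Matrix ι ι R)ˣ} (hg : g ∈ gl e ⊤ p)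
    (hh : h ∈ gl e ⊤ p) {N : Matrix ι ι R} (hN : Ent e ⊤ p N) : Ent e ⊤ p (h.1 * N * g.1) := by
  have h1 : Ent e ⊤ p (g.1 - 1) := hg
  have h2 : Ent e ⊤ p (h.1 - 1) := hh
  have h3 : h.1 * N * g.1 = (h.1 - 1) * N * (g.1 - 1) + (h.1 - 1) * N + N * (g.1 - 1) + N := by
    noncomm_ring
  rw [h3]
  exact ((((h2.mul hN).mul h1).add (h2.mul hN)).add (hN.mul h1)).add hN

/-- the main theorem for local corners -/
theorem main_local (R : Type) [Ring R] [Finite R] (n : ℕ) (e : Fin n → R)
    (he : ∀ i, e i * e i = e i) (ho : ∀ i j, i ≠ j → e i * e j = 0) (hs : ∑ i, e i = 1)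
    (hl : ∀ i x, e i * x = x → x * e i = x →
      (∃ y, e i * y = y ∧ y * e i = y ∧ x * y = e i ∧ y * x = e i) ∨
      (∃ y, e i * y = y ∧ y * e i = y ∧ (e i - x) * y = e i ∧ y * (e i - x) = e i)) :
    GroupInterval {S : Subring R // ∀ i x, e i * x * e i ∈ S} := by
  have hR1 : 0 < Nat.card R := Nat.card_pos
  set M : ℕ := Nat.card R with hM
  set c : ℕ := Nat.card R + 2 with hcdef
  let ι : Type := Σ i : Fin n, Fin (c * M ^ (i : ℕ))
  let p : ι → Fin n := Sigma.fst
  have hcm : ∀ i : Fin n, c ≤ c * M ^ (i : ℕ) := fun i =>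
    Nat.le_mul_of_pos_right _ (Nat.pow_pos hR1)
  have hcard : ∀ i, Nat.card R + 2 ≤ Fintype.card {a : ι // p a = i} := by
    intro i
    refine le_trans (hcm i) ?_
    have hinj : Function.Injective
        (fun k : Fin (c * M ^ (i : ℕ)) => (⟨⟨i, k⟩, rfl⟩ : {a : ι // p a = i})) := by
      intro k l hkl
      have := congrArg (fun a : {a : ι // p a = i} => a.1) hkl
      exact eq_of_heq (Sigma.mk.inj this).2
    have := Fintype.card_le_of_injective _ hinj
    rwa [Fintype.card_fin] at this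
  have hthree : ∀ i, ∃ a b c : ι, p a = i ∧ p b = i ∧ p c = i ∧ a ≠ b ∧ b ≠ c ∧ a ≠ c := by
    intro i
    have h3 : 3 ≤ c * M ^ (i : ℕ) := le_trans (by omega) (hcm i)
    refine ⟨⟨i, ⟨0, by omega⟩⟩, ⟨i, ⟨1, by omega⟩⟩, ⟨i, ⟨2, by omega⟩⟩, rfl, rfl, rfl, ?_, ?_, ?_⟩
    · intro h
      have := (Sigma.mk.inj h).2
      simp at this
    · intro h
      have := (Sigma.mk.inj h).2
      simp at this
    · intro h
      have := (Sigma.mk.inj h).2
      simp at this
  have hsurj : Function.Surjective p := fun i => by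
    obtain ⟨a, _, _, ha, _⟩ := hthree i
    exact ⟨a, ha⟩
  refine iso_row e he ho hs p hsurj ?_
  intro K hK hK'
  let S : Subring R := sk e p he ho hs hthree K hK
  have hS : ∀ i x, e i * x * e i ∈ S := fun i x => skP_corner ho K i x
  refine ⟨S, hS, le_antisymm ?_ ?_⟩
  · intro g hg
    have hg' : g⁻¹ ∈ K := K.inv_mem hg
    have hgg : g ∈ gl e ⊤ p := hK' hg
    have hgg' : g⁻¹ ∈ gl e ⊤ p := hK' hg'
    have key := card_row e he ho hs c M (by omega) le_rfl S hS g⁻¹ hgg' ?_
    · rwa [inv_inv] at key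
    · intro a a' haa hpa r hr hr'
      have hent : Ent e ⊤ p (g⁻¹⁻¹.1 * Matrix.single a a' r * g⁻¹.1) :=
        ent_conj hgg' ((gl e ⊤ p).inv_mem hgg')
          (ent_sgl (Subring.mem_top _) hr (by rw [show p a' = a.1 from hpa.symm]; exact hr'))
      intro x y
      refine ⟨?_, (hent x y).2⟩
      by_cases hxy : p x = p y
      · have h1 := hS (p x) ((g⁻¹⁻¹.1 * Matrix.single a a' r * g⁻¹.1) x y)
        rw [(hent x y).2.1] at h1
        rw [hxy] at h1
        rwa [(hent x y).2.2] at h1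
      · have h2 := step_two e he ho p hcard K hK hK' g⁻¹ hg' a a' haa hpa r hr hr' x y hxy
        exact (skP_iff he ho hK (hent x y).2.1 (hent x y).2.2 hxy).2 h2
  · exact elim_row e he ho hs hl p S hS K hK fun a b hab x hx => hx a b hab

end Vale.Agent.P183.H577
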