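import Mathlib.Data.Matrix.Basis
import Mathlib.LinearAlgebra.Matrix.Notation
import Mathlib.Algebra.Ring.Subring.Basic
import Mathlib.Algebra.Group.Subgroup.Basic
import Mathlib.GroupTheory.OrderOfElement
import Mathlib.Tactic

/-! P183: intermediate rings and overgroups of block diagonal groups (definitions). -/

namespace Vale.Agent.P183.H577

open Matrix

variable {R : Type} [Ring R] {n : ℕ} {ι : Type}

/-- the entries of `N` lie in `S` and in the Peirce components of `R` given by `p` -/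
def Ent (e : Fin n → R) (S : Subring R) (p : ι → Fin n) (N : Matrix ι ι R) : Prop :=
  ∀ a b, N a b ∈ S ∧ e (p a) * N a b = N a b ∧ N a b * e (p b) = N a b

theorem Ent.zero (e : Fin n → R) (S : Subring R) (p : ι → Fin n) : Ent e S p 0 := fun a b =>
  ⟨S.zero_mem, by simp, by simp⟩

theorem Ent.add {e : Fin n → R} {S : Subring R} {p : ι → Fin n} {N M : Matrix ι ι R}
    (hN : Ent e S p N) (hM : Ent e S p M) : Ent e S p (N + M) := fun a b =>
  ⟨S.add_mem (hN a b).1 (hM a b).1, by rw [Matrix.add_apply, mul_add, (hN a b).2.1, (hM a b).2.1],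
    by rw [Matrix.add_apply, add_mul, (hN a b).2.2, (hM a b).2.2]⟩

theorem Ent.neg {e : Fin n → R} {S : Subring R} {p : ι → Fin n} {N : Matrix ι ι R}
    (hN : Ent e S p N) : Ent e S p (-N) := fun a b =>
  ⟨S.neg_mem (hN a b).1, by rw [Matrix.neg_apply, mul_neg, (hN a b).2.1],
    by rw [Matrix.neg_apply, neg_mul, (hN a b).2.2]⟩

theorem Ent.mul [Fintype ι] {e : Fin n → R} {S : Subring R} {p : ι → Fin n} {N M : Matrix ι ι R}
    (hN : Ent e S p N) (hM : Ent e S p M) : Ent e S p (N * M) := fun a b =>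
  ⟨by rw [Matrix.mul_apply]; exact S.sum_mem fun c _ => S.mul_mem (hN a c).1 (hM c b).1,
    by rw [Matrix.mul_apply, Finset.mul_sum]; exact Finset.sum_congr rfl fun c _ => by
        rw [← mul_assoc, (hN a c).2.1],
    by rw [Matrix.mul_apply, Finset.sum_mul]; exact Finset.sum_congr rfl fun c _ => by
        rw [mul_assoc, (hM c b).2.2]⟩

theorem Ent.mono {e : Fin n → R} {S S' : Subring R} {p : ι → Fin n} {N : Matrix ι ι R}
    (hN : Ent e S p N) (h : S ≤ S') : Ent e S' p N := fun a b => ⟨h (hN a b).1, (hN a b).2⟩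

/-- a set of matrices closed under sums and products -/
structure Clo [Fintype ι] (P : Matrix ι ι R → Prop) : Prop where
  zero : P 0
  add : ∀ {N M}, P N → P M → P (N + M)
  mul : ∀ {N M}, P N → P M → P (N * M)

variable [Fintype ι] [DecidableEq ι] [Finite R]

/-- the group of all invertible `g` with `g - 1` in a set of matrices closed under sums and
products -/
def grp (P : Matrix ι ι R → Prop) (hP : Clo P) : Subgroup (Matrix ι ι R)ˣ where
  carrier := {g | P (g.1 - 1)}
  mul_mem' := by
    intro g h hg hh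
    have : (g * h).1 - 1 = (g.1 - 1) * (h.1 - 1) + ((g.1 - 1) + (h.1 - 1)) := by
      rw [Units.val_mul]
      noncomm_ring
    show P ((g * h).1 - 1)
    rw [this]
    exact hP.add (hP.mul hg hh) (hP.add hg hh)
  one_mem' := by
    show P ((1 : (Matrix ι ι R)ˣ).1 - 1)
    rw [Units.val_one, sub_self]
    exact hP.zero
  inv_mem' := by
    intro g hg
    have hpow : ∀ k : ℕ, P ((g ^ k).1 - 1) := by
      intro k
      induction k with
      | zero => rw [pow_zero, Units.val_one, sub_self]; exact hP.zero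
      | succ k ih =>
        have : (g ^ (k + 1)).1 - 1 = ((g ^ k).1 - 1) * (g.1 - 1) + (((g ^ k).1 - 1) + (g.1 - 1)) := by
          rw [pow_succ, Units.val_mul]
          noncomm_ring
        rw [this]
        exact hP.add (hP.mul ih hg) (hP.add ih hg)
    have hfin : Finite (Matrix ι ι R) := inferInstanceAs (Finite (ι → ι → R))
    have h1 := orderOf_pos g
    have h2 : g⁻¹ = g ^ (orderOf g - 1) := by
      rw [inv_eq_iff_mul_eq_one, ← pow_succ', Nat.sub_add_cancel h1, pow_orderOf_eq_one]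
    show P ((g⁻¹).1 - 1)
    rw [h2]
    exact hpow _

theorem mem_grp {P : Matrix ι ι R → Prop} {hP : Clo P} {g : (Matrix ι ι R)ˣ} :
    g ∈ grp P hP ↔ P (g.1 - 1) := Iff.rfl

theorem cloEnt (e : Fin n → R) (S : Subring R) (p : ι → Fin n) : Clo (Ent e S p) :=
  ⟨Ent.zero e S p, Ent.add, Ent.mul⟩

/-- the group of `S` -/
def gl (e : Fin n → R) (S : Subring R) (p : ι → Fin n) : Subgroup (Matrix ι ι R)ˣ :=
  grp (Ent e S p) (cloEnt e S p)

/-- the block diagonal matrices -/
def Blk (e : Fin n → R) (p : ι → Fin n) (N : Matrix ι ι R) : Prop :=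
  Ent e ⊤ p N ∧ ∀ a b, p a ≠ p b → N a b = 0

theorem cloBlk (e : Fin n → R) (p : ι → Fin n) : Clo (Blk e p) where
  zero := ⟨Ent.zero e ⊤ p, fun _ _ _ => rfl⟩
  add := fun {N M} hN hM => ⟨hN.1.add hM.1, fun a b hab => by
    rw [Matrix.add_apply, hN.2 a b hab, hM.2 a b hab, add_zero]⟩
  mul := fun {N M} hN hM => ⟨hN.1.mul hM.1, fun a b hab => by
    rw [Matrix.mul_apply]
    refine Finset.sum_eq_zero fun c _ => ?_
    by_cases h : p a = p c
    · rw [hM.2 c b (h ▸ hab), mul_zero]
    · rw [hN.2 a c h, zero_mul]⟩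

/-- the block diagonal group -/
def bl (e : Fin n → R) (p : ι → Fin n) : Subgroup (Matrix ι ι R)ˣ := grp (Blk e p) (cloBlk e p)

/-- `1 + N` is an element of `K` -/
def In (K : Subgroup (Matrix ι ι R)ˣ) (N : Matrix ι ι R) : Prop := ∃ g ∈ K, g.1 = 1 + N

end Vale.Agent.P183.H577
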