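import Vale.Agent.P183.R2.H577.Asm
import Vale.Agent.P183.H994.Icc
import Vale.Agent.P183.R2.H381.Refine

/-! P183: the interval between a finite ring and a subring which contains the Peirce corners. -/

set_option linter.unusedSectionVars false

namespace Vale.Agent.P183.H577

open Matrix Vale.Agent.P183 Vale.Agent.P183.H996 Vale.Agent.P183.H994

theorem main_full (R : Type) [Ring R] [Finite R] (n : ℕ) (e : Fin n → R)
    (he : ∀ i, e i * e i = e i) (ho : ∀ i j, i ≠ j → e i * e j = 0) (hs : ∑ i, e i = 1)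
    (A B : Subring R) (hA : ∀ i x, e i * x * e i ∈ A) (hAB : A ≤ B) :
    GroupInterval {S : Subring R // A ≤ S ∧ S ≤ B} := by
  obtain ⟨m, f, hf, hfo, hfs, hfe, hfl⟩ := refine_row e he ho hs
  have hL := main_local R m f hf hfo hfs hfl
  have hAf : ∀ j x, f j * x * f j ∈ A := by
    intro j x
    obtain ⟨i, h1, h2⟩ := hfe j
    have := hA i (f j * x * f j)
    have e1 : e i * (f j * x * f j) * e i = f j * x * f j := by
      have e2 : e i * (f j * x * f j) * e i = (e i * f j) * x * (f j * e i) := by
        simp only [mul_assoc]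
      rw [e2, h1, h2]
    rwa [e1] at this
  let a : {S : Subring R // ∀ j x, f j * x * f j ∈ S} := ⟨A, hAf⟩
  let b : {S : Subring R // ∀ j x, f j * x * f j ∈ S} := ⟨B, fun j x => hAB (hAf j x)⟩
  have hab : a ≤ b := hAB
  refine GroupInterval.of_iso ?_ (icc hL hab)
  exact
    { toFun := fun S => ⟨⟨S.1, fun j x => S.2.1 (hAf j x)⟩, S.2.1, S.2.2⟩
      invFun := fun S => ⟨S.1.1, S.2.1, S.2.2⟩
      left_inv := fun _ => rfl
      right_inv := fun _ => rfl
      map_rel_iff' := Iff.rfl }

end Vale.Agent.P183.H577
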