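import Vale.Agent.P183.R2.H577.Base

/-! P183: the ring of an overgroup of the block diagonal group. -/

set_option linter.unusedSectionVars false

namespace Vale.Agent.P183.H577

open Matrix

variable {R : Type} [Ring R] [Finite R] {n : ℕ} {ι : Type} [Fintype ι] [DecidableEq ι]

theorem In.zero (K : Subgroup (Matrix ι ι R)ˣ) : In K 0 := ⟨1, K.one_mem, by simp⟩

theorem In.add {K : Subgroup (Matrix ι ι R)ˣ} {N M : Matrix ι ι R} (hN : In K N) (hM : In K M)
    (h : N * M = 0) : In K (N + M) := by
  obtain ⟨g, hg, hgN⟩ := hN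
  obtain ⟨k, hk, hkM⟩ := hM
  refine ⟨g * k, K.mul_mem hg hk, ?_⟩
  rw [Units.val_mul, hgN, hkM]
  have e1 : (1 + N) * (1 + M) = 1 + (N + M) + N * M := by noncomm_ring
  rw [e1, h, add_zero]

theorem In.inv {K : Subgroup (Matrix ι ι R)ˣ} {N : Matrix ι ι R} (hN : In K N)
    (h : N * N = 0) : In K (-N) := by
  obtain ⟨g, hg, hgN⟩ := hN
  refine ⟨g⁻¹, K.inv_mem hg, ?_⟩
  rw [Units.inv_eq_of_mul_eq_one_right]
  rw [hgN]
  have : (1 + N) * (1 + -N) = 1 - N * N := by noncomm_ring
  rw [this, h, sub_zero]

theorem In.comm {K : Subgroup (Matrix ι ι R)ˣ} {N M : Matrix ι ι R} (hN : In K N) (hM : In K M)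
    (h1 : N * N = 0) (h2 : M * M = 0) (h3 : M * N = 0) : In K (N * M) := by
  obtain ⟨g, hg, hgN⟩ := hN
  obtain ⟨k, hk, hkM⟩ := hM
  obtain ⟨g', hg', hgN'⟩ := In.inv ⟨g, hg, hgN⟩ h1
  obtain ⟨k', hk', hkM'⟩ := In.inv ⟨k, hk, hkM⟩ h2
  refine ⟨g * k * g' * k', K.mul_mem (K.mul_mem (K.mul_mem hg hk) hg') hk', ?_⟩
  rw [Units.val_mul, Units.val_mul, Units.val_mul, hgN, hkM, hgN', hkM']
  have e1 : (1 + N) * (1 + M) * (1 + -N) * (1 + -M) =
      1 + N * M - N * N - M * M - M * N + (M * N) * M + N * N * M - (N * M) * N - N * (M * M)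
        + N * (M * N) * M := by noncomm_ring
  rw [e1, h1, h2, h3]
  have e2 : N * M * N = N * (M * N) := mul_assoc _ _ _
  rw [e2, h3]
  simp

omit [Finite R] in
theorem single_sq {a b : ι} (hab : a ≠ b) (r : R) :
    Matrix.single a b r * Matrix.single a b r = 0 :=
  Matrix.single_mul_single_of_ne _ _ _ _ hab.symm _

theorem In.single_mul {K : Subgroup (Matrix ι ι R)ˣ} {a b c : ι} {r s : R} (hab : a ≠ b)
    (hbc : b ≠ c) (hac : a ≠ c) (h1 : In K (Matrix.single a b r))
    (h2 : In K (Matrix.single b c s)) : In K (Matrix.single a c (r * s)) := by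
  have := In.comm h1 h2 (single_sq hab r) (single_sq hbc s)
    (Matrix.single_mul_single_of_ne _ _ _ _ hac.symm _)
  rwa [Matrix.single_mul_single_same] at this

omit [Finite R] in
theorem ent_sgl {e : Fin n → R} {S : Subring R} {p : ι → Fin n} {a b : ι} {r : R} (hS : r ∈ S)
    (h1 : e (p a) * r = r) (h2 : r * e (p b) = r) : Ent e S p (Matrix.single a b r) := by
  intro x y
  by_cases h : a = x ∧ b = y
  · obtain ⟨rfl, rfl⟩ := h
    rw [Matrix.single_apply_same]
    exact ⟨hS, h1, h2⟩
  · rw [Matrix.single_apply_of_ne _ _ _ _ _ h]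
    exact ⟨S.zero_mem, mul_zero _, zero_mul _⟩

/-- elementary matrices in the block diagonal group -/
theorem in_bl {e : Fin n → R} {p : ι → Fin n} {a b : ι} (hab : a ≠ b) (hp : p a = p b) {r : R}
    (h1 : e (p a) * r = r) (h2 : r * e (p b) = r) : In (bl e p) (Matrix.single a b r) := by
  have hsq := single_sq hab r
  refine ⟨⟨1 + Matrix.single a b r, 1 - Matrix.single a b r, ?_, ?_⟩, ?_, rfl⟩
  · have : (1 + Matrix.single a b r) * (1 - Matrix.single a b r)
        = 1 - Matrix.single a b r * Matrix.single a b r := by noncomm_ring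
    rw [this, hsq, sub_zero]
  · have : (1 - Matrix.single a b r) * (1 + Matrix.single a b r)
        = 1 - Matrix.single a b r * Matrix.single a b r := by noncomm_ring
    rw [this, hsq, sub_zero]
  · show Blk e p (1 + Matrix.single a b r - 1)
    rw [add_sub_cancel_left]
    refine ⟨ent_sgl (Subring.mem_top _) h1 h2, fun x y hxy => ?_⟩
    refine Matrix.single_apply_of_ne _ _ _ _ _ ?_
    rintro ⟨rfl, rfl⟩
    exact hxy hp

theorem In.mono {K K' : Subgroup (Matrix ι ι R)ˣ} (h : K ≤ K') {N : Matrix ι ι R} (hN : In K N) :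
    In K' N := by
  obtain ⟨g, hg, hgN⟩ := hN
  exact ⟨g, h hg, hgN⟩

/-- moving an elementary matrix inside its block -/
theorem In.move {e : Fin n → R} {p : ι → Fin n} (he : ∀ i, e i * e i = e i)
    {K : Subgroup (Matrix ι ι R)ˣ}
    (hK : bl e p ≤ K) {a b a' b' : ι} {r : R} (h1 : e (p a) * r = r) (h2 : r * e (p b) = r)
    (hab : p a ≠ p b) (ha : p a' = p a) (hb : p b' = p b) (h : In K (Matrix.single a b r)) :
    In K (Matrix.single a' b' r) := by
  have hab' : a ≠ b := fun h => hab (congrArg p h)
  have ha'b : a' ≠ b := fun h => hab (by rw [← ha, h])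
  have ha'b' : a' ≠ b' := fun h => hab (by rw [← ha, h, hb])
  have s1 : In K (Matrix.single a' b r) := by
    by_cases haa : a' = a
    · rw [haa]; exact h
    · have := In.single_mul haa hab' ha'b (In.mono hK (in_bl haa ha (by rw [ha]; exact he _)
        (he _) : In (bl e p) (Matrix.single a' a (e (p a))))) h
      rwa [h1] at this
  by_cases hbb : b = b'
  · rw [← hbb]; exact s1
  · have := In.single_mul ha'b hbb ha'b' s1 (In.mono hK (in_bl hbb hb.symm (he _)
      (by rw [hb]; exact he _) : In (bl e p) (Matrix.single b b' (e (p b)))))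
    rwa [h2] at this

/-- the condition which defines the ring of `K` -/
def SkP (e : Fin n → R) (p : ι → Fin n) (K : Subgroup (Matrix ι ι R)ˣ) (x : R) : Prop :=
  ∀ a b, p a ≠ p b → In K (Matrix.single a b (e (p a) * x * e (p b)))

theorem skP_iff {e : Fin n → R} {p : ι → Fin n} (he : ∀ i, e i * e i = e i)
    (ho : ∀ i j, i ≠ j → e i * e j = 0) {K : Subgroup (Matrix ι ι R)ˣ} (hK : bl e p ≤ K)
    {a b : ι} {r : R} (h1 : e (p a) * r = r) (h2 : r * e (p b) = r) (hab : p a ≠ p b) :
    SkP e p K r ↔ In K (Matrix.single a b r) := by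
  constructor
  · intro h
    have := h a b hab
    rwa [h1, h2] at this
  · intro h c d hcd
    by_cases hca : p c = p a
    · by_cases hdb : p d = p b
      · rw [hca, hdb, h1, h2]
        exact In.move he hK h1 h2 hab hca hdb h
      · have : e (p c) * r * e (p d) = 0 := by
          rw [← h2, ← mul_assoc, mul_assoc, ho _ _ (Ne.symm hdb), mul_zero]
        rw [this, Matrix.single_zero]
        exact In.zero K
    · have : e (p c) * r = 0 := by rw [← h1, ← mul_assoc, ho _ _ hca, zero_mul]
      rw [this, zero_mul, Matrix.single_zero]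
      exact In.zero K

/-- the ring of an overgroup of the block diagonal group -/
def sk (e : Fin n → R) (p : ι → Fin n) (he : ∀ i, e i * e i = e i)
    (ho : ∀ i j, i ≠ j → e i * e j = 0) (hs : ∑ i, e i = 1)
    (hc : ∀ i, ∃ a b c : ι, p a = i ∧ p b = i ∧ p c = i ∧ a ≠ b ∧ b ≠ c ∧ a ≠ c)
    (K : Subgroup (Matrix ι ι R)ˣ) (hK : bl e p ≤ K) :
    Subring R where
  carrier := {x | SkP e p K x}
  zero_mem' := fun a b _ => by
    rw [mul_zero, zero_mul, Matrix.single_zero]
    exact In.zero K
  one_mem' := fun a b hab => by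
    rw [mul_one, ho _ _ hab, Matrix.single_zero]
    exact In.zero K
  add_mem' := by
    intro x y hx hy a b hab
    rw [mul_add, add_mul, Matrix.single_add]
    exact In.add (hx a b hab) (hy a b hab)
      (Matrix.single_mul_single_of_ne _ _ _ _ (fun h => hab (congrArg p h.symm)) _)
  neg_mem' := by
    intro x hx a b hab
    have h := In.inv (hx a b hab) (single_sq (fun h => hab (congrArg p h)) _)
    have e1 : e (p a) * -x * e (p b) = -(e (p a) * x * e (p b)) := by rw [mul_neg, neg_mul]
    rw [e1, ← Matrix.single_neg]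
    exact h
  mul_mem' := by
    intro x y hx hy a b hab
    have key : ∀ k, In K (Matrix.single a b (e (p a) * x * e k * (e k * y * e (p b)))) := by
      intro k
      obtain ⟨c₁, c₂, c₃, h1, h2, h3, h12, h23, h13⟩ := hc k
      obtain ⟨c, hck, hca, hcb⟩ : ∃ c, p c = k ∧ c ≠ a ∧ c ≠ b := by
        by_cases t1 : c₁ = a ∨ c₁ = b
        · by_cases t2 : c₂ = a ∨ c₂ = b
          · refine ⟨c₃, h3, ?_, ?_⟩
            · rintro rfl
              rcases t1 with t1 | t1
              · exact h13 t1
              · rcases t2 with t2 | t2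
                · exact h23 t2
                · exact h12 (t1.trans t2.symm)
            · rintro rfl
              rcases t1 with t1 | t1
              · rcases t2 with t2 | t2
                · exact h12 (t1.trans t2.symm)
                · exact h23 t2
              · exact h13 t1
          · push Not at t2
            exact ⟨c₂, h2, t2.1, t2.2⟩
        · push Not at t1
          exact ⟨c₁, h1, t1.1, t1.2⟩
      have hab' : a ≠ b := fun h => hab (congrArg p h)
      have f1 : In K (Matrix.single a c (e (p a) * x * e k)) := by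
        by_cases hac : p a = k
        · refine In.mono hK (in_bl hca.symm (hac.trans hck.symm) ?_ ?_)
          · rw [← mul_assoc, ← mul_assoc, he]
          · rw [hck, mul_assoc, he]
        · have := hx a c (by rw [hck]; exact hac)
          rwa [hck] at this
      have f2 : In K (Matrix.single c b (e k * y * e (p b))) := by
        by_cases hkb : k = p b
        · refine In.mono hK (in_bl hcb (hck.trans hkb) ?_ ?_)
          · rw [hck, ← mul_assoc, ← mul_assoc, he]
          · rw [mul_assoc, he]
        · have := hy c b (by rw [hck]; exact hkb)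
          rwa [hck] at this
      exact In.single_mul hca.symm hcb hab' f1 f2
    have hsum : e (p a) * (x * y) * e (p b)
        = ∑ k, e (p a) * x * e k * (e k * y * e (p b)) := by
      have : ∀ k, e (p a) * x * e k * (e k * y * e (p b)) = e (p a) * x * e k * (y * e (p b)) := by
        intro k
        rw [mul_assoc (e (p a) * x), ← mul_assoc (e k), ← mul_assoc (e k), he, mul_assoc (e k),
          ← mul_assoc (e (p a) * x)]
      rw [Finset.sum_congr rfl fun k _ => this k, ← Finset.sum_mul, ← Finset.mul_sum, hs, mul_one]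
      simp only [mul_assoc]
    rw [hsum]
    have : ∀ s : Finset (Fin n),
        In K (Matrix.single a b (∑ k ∈ s, e (p a) * x * e k * (e k * y * e (p b)))) := by
      intro s
      induction s using Finset.induction_on with
      | empty => rw [Finset.sum_empty, Matrix.single_zero]; exact In.zero K
      | insert k s hk ih =>
        rw [Finset.sum_insert hk, Matrix.single_add]
        exact In.add (key k) ih
          (Matrix.single_mul_single_of_ne _ _ _ _ (fun h => hab (congrArg p h.symm)) _)
    exact this _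

end Vale.Agent.P183.H577
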