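import Vale.Agent.P183.R2.H577.Asm
import Vale.Agent.P183.R2.H808.Fix
import Vale.Agent.P183.R2.H554.Alpha
import Vale.Agent.P183.R2.H577.ElimG

/-! P183: rings invariant under automorphisms and antiautomorphisms (assembly). -/

set_option linter.unusedSectionVars false

namespace Vale.Agent.P183.H577

open Matrix Vale.Agent.P183 Vale.Agent.P183.H996

/-- the main theorem with automorphisms and antiautomorphisms -/
def MainTheta : Prop :=
  ∀ (R : Type) [Ring R] [Finite R] (n : ℕ) (e : Fin n → R), (∀ i, e i * e i = e i) →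
    (∀ i j, i ≠ j → e i * e j = 0) → ∑ i, e i = 1 →
    ∀ Θ : Set (R ≃+ R),
      (∀ θ ∈ Θ, (∀ x y, θ (x * y) = θ x * θ y) ∨ (∀ x y, θ (x * y) = θ y * θ x)) →
      (∀ θ ∈ Θ, ∀ i, θ (e i) = e i) →
      ∀ A : Subring R, (∀ i x, e i * x * e i ∈ A) → (∀ θ ∈ Θ, ∀ a ∈ A, θ a ∈ A) →
        GroupInterval {C : Subring R // A ≤ C ∧ ∀ θ ∈ Θ, ∀ c ∈ C, θ c ∈ C}

/-- subgroups between `A` and `B` invariant under automorphisms of the ambient group -/
theorem fix_between {G : Type} [Group G] [Finite G] (Aa : Set (MulAut G)) (A B : Subgroup G)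
    (hAB : A ≤ B) (hA : ∀ α ∈ Aa, ∀ h ∈ A, α h ∈ A) (hB : ∀ α ∈ Aa, ∀ h ∈ B, α h ∈ B) :
    GroupInterval {K : Subgroup G // (A ≤ K ∧ K ≤ B) ∧ ∀ α ∈ Aa, ∀ k ∈ K, α k ∈ K} := by
  classical
  have hfB : Finite B := inferInstance
  -- the restriction
  have hres : ∀ α ∈ Aa, ∃ β : MulAut B, ∀ b : B, ((β b : B) : G) = α b := by
    intro α hα
    let f : B →* B :=
      { toFun := fun b => ⟨α b, hB α hα b b.2⟩
        map_one' := Subtype.ext (map_one α)
        map_mul' := fun x y => Subtype.ext (map_mul α (x : G) (y : G)) }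
    have hinj : Function.Injective f := by
      intro x y h
      apply Subtype.ext
      exact α.injective (congrArg Subtype.val h)
    exact ⟨MulEquiv.ofBijective f ⟨hinj, Finite.surjective_of_injective hinj⟩, fun b => rfl⟩
  let Ab : Set (MulAut B) := {β | ∃ α ∈ Aa, ∀ b : B, ((β b : B) : G) = α b}
  have key := fix_row Ab (A.subgroupOf B) (by
    rintro β ⟨α, hα, hβ⟩ h hh
    rw [Subgroup.mem_subgroupOf] at hh ⊢
    rw [hβ]
    exact hA α hα _ hh)
  refine GroupInterval.of_iso ?_ key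
  exact
    { toFun := fun K => ⟨K.1.subgroupOf B, fun x hx => K.2.1.1 hx, by
        rintro β ⟨α, hα, hβ⟩ k hk
        rw [Subgroup.mem_subgroupOf] at hk ⊢
        rw [hβ]
        exact K.2.2 α hα _ hk⟩
      invFun := fun Y => ⟨Y.1.map B.subtype, ⟨fun x hx =>
          ⟨⟨x, hAB hx⟩, Y.2.1 (Subgroup.mem_subgroupOf.2 hx), rfl⟩, by
          rintro x ⟨y, -, rfl⟩
          exact y.2⟩, by
        rintro α hα k ⟨y, hy, rfl⟩
        obtain ⟨β, hβ⟩ := hres α hα
        exact ⟨β y, Y.2.2 β ⟨α, hα, hβ⟩ y hy, hβ y⟩⟩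
      left_inv := by
        intro K
        apply Subtype.ext
        show (K.1.subgroupOf B).map B.subtype = K.1
        rw [Subgroup.subgroupOf_map_subtype]
        exact inf_eq_left.2 K.2.1.2
      right_inv := by
        intro Y
        apply Subtype.ext
        show (Y.1.map B.subtype).subgroupOf B = Y.1
        ext x
        rw [Subgroup.mem_subgroupOf]
        constructor
        · rintro ⟨y, hy, hyx⟩
          rwa [← Subtype.ext hyx]
        · intro hx
          exact ⟨x, hx, rfl⟩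
      map_rel_iff' := by
        intro K L
        constructor
        · intro h x hx
          exact h (show (⟨x, K.2.1.2 hx⟩ : B) ∈ K.1.subgroupOf B from hx)
        · intro h x hx
          exact h hx }

/-- every overgroup of the block diagonal group is the group of a ring -/
theorem exists_gl (R : Type) [Ring R] [Finite R] (n : ℕ) (e : Fin n → R)
    (he : ∀ i, e i * e i = e i) (ho : ∀ i j, i ≠ j → e i * e j = 0) (hs : ∑ i, e i = 1) :
    ∃ (ι : Type) (_ : Fintype ι) (_ : DecidableEq ι) (p : ι → Fin n), Function.Surjective p ∧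
      ∀ K : Subgroup (Matrix ι ι R)ˣ, bl e p ≤ K → K ≤ gl e ⊤ p →
        ∃ S : Subring R, (∀ i x, e i * x * e i ∈ S) ∧ K = gl e S p := by
  have hR1 : 0 < Nat.card R := Nat.card_pos
  set M : ℕ := Nat.card R with hM
  set c : ℕ := Nat.card R + 2 with hcdef
  let ι : Type := Σ i : Fin n, Fin (c * M ^ (i : ℕ))
  let p : ι → Fin n := Sigma.fst
  have hcm : ∀ i : Fin n, c ≤ c * M ^ (i : ℕ) := fun i =>
    Nat.le_mul_of_pos_right _ (Nat.pow_pos hR1)
  have hcard : ∀ i, Nat.card R + 2 ≤ Fintype.card {a : ι // p a = i} := by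
    intro i
    refine le_trans (hcm i) ?_
    have hinj : Function.Injective
        (fun k : Fin (c * M ^ (i : ℕ)) => (⟨⟨i, k⟩, rfl⟩ : {a : ι // p a = i})) := by
      intro k l hkl
      have := congrArg (fun a : {a : ι // p a = i} => a.1) hkl
      exact eq_of_heq (Sigma.mk.inj this).2
    have := Fintype.card_le_of_injective _ hinj
    rwa [Fintype.card_fin] at this
  have hthree : ∀ i, ∃ a b c : ι, p a = i ∧ p b = i ∧ p c = i ∧ a ≠ b ∧ b ≠ c ∧ a ≠ c := by
    intro i
    have h3 : 3 ≤ c * M ^ (i : ℕ) := le_trans (by omega) (hcm i)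
    refine ⟨⟨i, ⟨0, by omega⟩⟩, ⟨i, ⟨1, by omega⟩⟩, ⟨i, ⟨2, by omega⟩⟩, rfl, rfl, rfl, ?_, ?_, ?_⟩
    · intro h
      have := (Sigma.mk.inj h).2
      simp at this
    · intro h
      have := (Sigma.mk.inj h).2
      simp at this
    · intro h
      have := (Sigma.mk.inj h).2
      simp at this
  have hsurj : Function.Surjective p := fun i => by
    obtain ⟨a, _, _, ha, _⟩ := hthree i
    exact ⟨a, ha⟩
  refine ⟨ι, inferInstance, inferInstance, p, hsurj, ?_⟩
  intro K hK hK'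
  let S : Subring R := sk e p he ho hs hthree K hK
  have hS : ∀ i x, e i * x * e i ∈ S := fun i x => skP_corner ho K i x
  refine ⟨S, hS, le_antisymm ?_ ?_⟩
  · intro g hg
    have hg' : g⁻¹ ∈ K := K.inv_mem hg
    have hgg : g ∈ gl e ⊤ p := hK' hg
    have hgg' : g⁻¹ ∈ gl e ⊤ p := hK' hg'
    have key := card_row e he ho hs c M (by omega) le_rfl S hS g⁻¹ hgg' ?_
    · rwa [inv_inv] at key
    · intro a a' haa hpa r hr hr'
      have hent : Ent e ⊤ p (g⁻¹⁻¹.1 * Matrix.single a a' r * g⁻¹.1) :=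
        ent_conj hgg' ((gl e ⊤ p).inv_mem hgg')
          (ent_sgl (Subring.mem_top _) hr (by rw [show p a' = a.1 from hpa.symm]; exact hr'))
      intro x y
      refine ⟨?_, (hent x y).2⟩
      by_cases hxy : p x = p y
      · have h1 := hS (p x) ((g⁻¹⁻¹.1 * Matrix.single a a' r * g⁻¹.1) x y)
        rw [(hent x y).2.1] at h1
        rw [hxy] at h1
        rwa [(hent x y).2.2] at h1
      · have h2 := step_two e he ho p hcard K hK hK' g⁻¹ hg' a a' haa hpa r hr hr' x y hxy
        exact (skP_iff he ho hK (hent x y).2.1 (hent x y).2.2 hxy).2 h2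
  · exact elim_gen e he ho hs p S hS K hK fun a b hab x hx => hx a b hab

/-- **Main theorem with automorphisms and antiautomorphisms.** -/
theorem main_theta : MainTheta := by
  classical
  intro R _ _ n e he ho hs Th hTh hThe A hA hAT
  obtain ⟨ι, _, _, p, hp, hK⟩ := exists_gl R n e he ho hs
  have hfin : Finite (Matrix ι ι R) := inferInstanceAs (Finite (ι → ι → R))
  have hfu : Finite (Matrix ι ι R)ˣ := Finite.of_injective _ Units.val_injective
  have hch : ∀ θ : Th, ∃ α : MulAut (Matrix ι ι R)ˣ,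
      ∀ S : Subring R, (∀ i x, e i * x * e i ∈ S) →
        ((∀ g ∈ gl e S p, α g ∈ gl e S p) ↔ ∀ x ∈ S, θ.1 x ∈ S) := by
    intro θ
    obtain ⟨α, -, hα⟩ := alpha_row e he ho hs p hp θ.1 (hTh θ.1 θ.2) (hThe θ.1 θ.2)
    exact ⟨α, hα⟩
  choose al hal using hch
  have key := fix_between (Set.range al) (gl e A p) (gl e ⊤ p) (iso_gl_mono e p le_top)
    (by
      rintro _ ⟨θ, rfl⟩
      exact (hal θ A hA).2 (hAT θ.1 θ.2))
    (by
      rintro _ ⟨θ, rfl⟩
      exact (hal θ ⊤ fun _ _ => Subring.mem_top _).2 fun _ _ => Subring.mem_top _)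
  refine GroupInterval.of_iso ?_ key
  let f : {C : Subring R // A ≤ C ∧ ∀ θ ∈ Th, ∀ c ∈ C, θ c ∈ C} →
      {K : Subgroup (Matrix ι ι R)ˣ // (gl e A p ≤ K ∧ K ≤ gl e ⊤ p) ∧
        ∀ α ∈ Set.range al, ∀ k ∈ K, α k ∈ K} := fun C =>
    ⟨gl e C.1 p, ⟨iso_gl_mono e p C.2.1, iso_gl_mono e p le_top⟩, by
      rintro _ ⟨θ, rfl⟩
      exact (hal θ C.1 fun i x => C.2.1 (hA i x)).2 (C.2.2 θ.1 θ.2)⟩
  have hf : ∀ C D, f C ≤ f D ↔ C ≤ D := by
    intro C D
    constructor
    · intro h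
      exact iso_le_of_gl_le e he hs p hp (fun i x => C.2.1 (hA i x)) (fun i x => D.2.1 (hA i x)) h
    · intro h
      exact iso_gl_mono e p h
  have hsurj : Function.Surjective f := by
    rintro ⟨K, ⟨hK1, hK2⟩, hK3⟩
    obtain ⟨S, hS, rfl⟩ := hK K ((iso_bl_le e p A hA).trans hK1) hK2
    have hAS : A ≤ S := iso_le_of_gl_le e he hs p hp hA hS hK1
    exact ⟨⟨S, hAS, fun θ hθ => (hal ⟨θ, hθ⟩ S hS).1 (hK3 _ ⟨⟨θ, hθ⟩, rfl⟩)⟩, rfl⟩
  have hinj : Function.Injective f := by
    intro C D h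
    exact le_antisymm ((hf C D).1 h.le) ((hf D C).1 h.ge)
  exact { Equiv.ofBijective f ⟨hinj, hsurj⟩ with map_rel_iff' := fun {C D} => hf C D }

end Vale.Agent.P183.H577
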