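import Mathlib.Topology.Order
import Mathlib.Topology.Inseparable
import Mathlib.Data.Set.Finite.Lattice
import Vale.Agent.P183.H994.Nets

/-! P183: the topologies on a finite set are the preorders. -/

namespace Vale.Agent.P183.H577

open Vale.Agent.P183.H994 Topology

/-- the topology of a relation: the sets `U` with `y ∈ U`, `r x y` only if `x ∈ U` -/
def topOf {X : Type} (r : X → X → Prop) : TopologicalSpace X where
  IsOpen U := ∀ x y, r x y → y ∈ U → x ∈ U
  isOpen_univ := fun _ _ _ _ => Set.mem_univ _
  isOpen_inter := fun U V hU hV x y hr hy => ⟨hU x y hr hy.1, hV x y hr hy.2⟩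
  isOpen_sUnion := fun S hS x y hr hy => by
    obtain ⟨U, hU, hyU⟩ := hy
    exact ⟨U, hU, hS U hU x y hr hyU⟩

/-- the specialization relation of a topology, written out -/
def relOf {X : Type} (t : TopologicalSpace X) (x y : X) : Prop :=
  ∀ U : Set X, IsOpen[t] U → y ∈ U → x ∈ U

theorem isOpen_topOf {X : Type} (r : X → X → Prop) (U : Set X) :
    IsOpen[topOf r] U ↔ ∀ x y, r x y → y ∈ U → x ∈ U := Iff.rfl

theorem relOf_topOf {X : Type} (r : Preords X) : relOf (topOf r.1) = r.1 := by
  funext x y
  refine propext ⟨fun h => ?_, fun h U hU hy => hU x y h hy⟩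
  exact h {z | r.1 z y} (fun a b hab hb => r.2.2 a b y hab hb) (r.2.1 y)

theorem topOf_relOf {X : Type} [Finite X] (t : TopologicalSpace X) : topOf (relOf t) = t := by
  apply TopologicalSpace.ext
  funext U
  refine propext ⟨fun h => ?_, fun h x y hr hy => hr U h hy⟩
  have hU : U = ⋃ y ∈ U, ⋂ V ∈ {V : Set X | IsOpen[t] V ∧ y ∈ V}, V := by
    ext x
    simp only [Set.mem_iUnion, Set.mem_iInter, exists_prop]
    constructor
    · intro hx
      exact ⟨x, hx, fun V hV => hV.2⟩
    · rintro ⟨y, hy, hxy⟩
      exact h x y (fun V hV hyV => hxy V ⟨hV, hyV⟩) hy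
  change IsOpen[t] U
  rw [hU]
  letI := t
  exact isOpen_biUnion fun y _ => Set.Finite.isOpen_biInter (Set.toFinite _) fun V hV => hV.1

/-- the lattice of all topologies on a finite set is the lattice of all preorders -/
def topoIso (X : Type) [Finite X] : TopologicalSpace X ≃o Preords X where
  toFun t := ⟨relOf t, fun _ _ _ h => h, fun _ _ _ h1 h2 U hU hz => h1 U hU (h2 U hU hz)⟩
  invFun r := topOf r.1
  left_inv t := topOf_relOf t
  right_inv r := Subtype.ext (relOf_topOf r)
  map_rel_iff' := by
    intro s t
    constructor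
    · intro h
      rw [← topOf_relOf s, ← topOf_relOf t]
      intro U hU x y hr hy
      exact hU x y (h x y hr) hy
    · intro h x y hr U hU hy
      exact hr U (h U hU) hy

theorem topo_row (X : Type) [Finite X] : Nonempty (TopologicalSpace X ≃o Preords X) :=
  ⟨topoIso X⟩

end Vale.Agent.P183.H577
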